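import Crest.Agent.R271.Defs
import Crest.Agent.Lib.PL.PrekopaLeindler

/-! # Row 271, block Al.  See `Crest/Agent/R271/Blueprint.lean`, section Al.
A discrete weighted Prékopa–Leindler inequality on `ℕ^d` (layer cake in dimension one, tensorisation). -/

set_option autoImplicit false

namespace Crest.Agent.R271

open MeasureTheory Set
open scoped ENNReal NNReal

theorem bm_set {A B C : Set ℕ} (hA : A.Nonempty) (hB : B.Nonempty)
    (hC : ∀ x ∈ A, ∀ y ∈ B, ∀ e ≤ 1, x + y + e ∈ C) :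
    Measure.count A + Measure.count B ≤ Measure.count C := by
  set b := sInf B with hb
  have hbB : b ∈ B := Nat.sInf_mem hB
  have h1 : (fun x => x + b) '' A ⊆ C := by
    rintro _ ⟨x, hx, rfl⟩
    simpa using hC x hx b hbB 0 zero_le_one
  have e1 : Measure.count ((fun x => x + b) '' A) = Measure.count A :=
    Measure.count_injective_image (add_left_injective b) A
  by_cases hfin : A.Finite
  · obtain ⟨a, haA, ha⟩ := hfin.exists_maximal hA
    have h2 : (fun y => a + y + 1) '' B ⊆ C := by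
      rintro _ ⟨y, hy, rfl⟩
      exact hC a haA y hy 1 le_rfl
    have e2 : Measure.count ((fun y => a + y + 1) '' B) = Measure.count B :=
      Measure.count_injective_image (fun x y h => by simpa using h) B
    have hd : Disjoint ((fun x => x + b) '' A) ((fun y => a + y + 1) '' B) := by
      rw [Set.disjoint_left]
      rintro _ ⟨x, hx, rfl⟩ ⟨y, hy, h⟩
      have q1 : b ≤ y := Nat.sInf_le hy
      have q2 : x ≤ a := by
        by_contra hc
        have := ha hx (not_le.1 hc).le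
        exact hc this
      simp only at h
      omega
    rw [← e1, ← e2, ← measure_union hd (MeasurableSet.of_discrete)]
    exact measure_mono (union_subset h1 h2)
  · have : Measure.count C = ∞ := by
      refine top_le_iff.1 ?_
      rw [← Measure.count_apply_infinite hfin, ← e1]
      exact measure_mono h1
    rw [this]; exact le_top

theorem bm_norm {a b : ℝ} (ha : 0 < a) (hb : 0 < b) (hab : a + b = 1) {f g h : ℕ → ℝ≥0∞}
    (hf1 : ⨆ x, f x = 1) (hg1 : ⨆ x, g x = 1) (H : ∀ x y, ∀ e ≤ 1, f x ^ a * g y ^ b ≤ h (x + y + e)) :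
    ∑' x, f x + ∑' x, g x ≤ ∑' x, h x := by
  rw [← lintegral_count, ← lintegral_count, ← lintegral_count,
    Lib.PL.layer_cake _ (Measurable.of_discrete (f := f)), Lib.PL.layer_cake _ (Measurable.of_discrete (f := g)),
    Lib.PL.layer_cake _ (Measurable.of_discrete (f := h))]
  refine (le_lintegral_add _ _).trans (lintegral_mono fun t => ?_)
  by_cases ht : ENNReal.ofReal t < 1
  · refine bm_set ?_ ?_ ?_
    · rw [← hf1, lt_iSup_iff] at ht
      exact ht
    · rw [← hg1, lt_iSup_iff] at ht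
      exact ht
    · intro x hx y hy e he
      simp only [mem_ofPred_eq] at hx hy ⊢
      refine lt_of_lt_of_le ?_ (H x y e he)
      calc ENNReal.ofReal t = ENNReal.ofReal t ^ a * ENNReal.ofReal t ^ b := by
            rw [← ENNReal.rpow_add_of_nonneg _ _ ha.le hb.le, hab, ENNReal.rpow_one]
        _ < _ := ENNReal.mul_lt_mul (ENNReal.rpow_lt_rpow hx ha) (ENNReal.rpow_lt_rpow hy hb)
  · rw [not_lt] at ht
    have e1 : {x | ENNReal.ofReal t < f x} = ∅ := by
      ext x
      simp only [mem_ofPred_eq, mem_empty_iff_false, iff_false, not_lt]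
      exact (le_iSup f x).trans (hf1.le.trans ht)
    have e2 : {x | ENNReal.ofReal t < g x} = ∅ := by
      ext x
      simp only [mem_ofPred_eq, mem_empty_iff_false, iff_false, not_lt]
      exact (le_iSup g x).trans (hg1.le.trans ht)
    simp [e1, e2]

theorem bm_amgm {a b : ℝ} (ha : 0 < a) (hb : 0 < b) (hab : a + b = 1) {x y : ℝ≥0∞} (hx : x ≠ ∞) (hy : y ≠ ∞) :
    x ^ a * y ^ b ≤ ENNReal.ofReal (a ^ a * b ^ b) * (x + y) := by
  lift x to ℝ≥0 using hx
  lift y to ℝ≥0 using hy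
  have h1 := Real.geom_mean_le_arith_mean2_weighted ha.le hb.le (div_nonneg x.2 ha.le) (div_nonneg y.2 hb.le) hab
  rw [mul_div_cancel₀ _ ha.ne', mul_div_cancel₀ _ hb.ne', Real.div_rpow x.2 ha.le, Real.div_rpow y.2 hb.le,
    div_mul_div_comm, div_le_iff₀ (by positivity)] at h1
  rw [← ENNReal.ofReal_coe_nnreal (p := x), ← ENNReal.ofReal_coe_nnreal (p := y),
    ENNReal.ofReal_rpow_of_nonneg x.coe_nonneg ha.le, ENNReal.ofReal_rpow_of_nonneg y.coe_nonneg hb.le,
    ← ENNReal.ofReal_mul (by positivity), ← ENNReal.ofReal_add x.coe_nonneg y.coe_nonneg, ← ENNReal.ofReal_mul (by positivity)]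
  exact ENNReal.ofReal_le_ofReal (by rw [mul_comm (a ^ a * b ^ b)]; exact h1)

theorem bm_dim1 {a b : ℝ} (ha : 0 < a) (hb : 0 < b) (hab : a + b = 1) {f g h : ℕ → ℝ≥0∞}
    (hf : ∑' x, f x ≠ ∞) (hg : ∑' x, g x ≠ ∞) (H : ∀ x y, ∀ e ≤ 1, f x ^ a * g y ^ b ≤ h (x + y + e)) :
    (∑' x, f x) ^ a * (∑' x, g x) ^ b ≤ ENNReal.ofReal (a ^ a * b ^ b) * ∑' x, h x := by
  by_cases hf0 : ⨆ x, f x = 0
  · have : ∀ x, f x = 0 := by simpa using hf0
    simp [this, ha]
  by_cases hg0 : ⨆ x, g x = 0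
  · have : ∀ x, g x = 0 := by simpa using hg0
    simp [this, hb]
  set F := ⨆ x, f x with hF
  set G := ⨆ x, g x with hG
  have hF1 : F ≠ ∞ := ne_top_of_le_ne_top hf (iSup_le fun x => ENNReal.le_tsum x)
  have hG1 : G ≠ ∞ := ne_top_of_le_ne_top hg (iSup_le fun x => ENNReal.le_tsum x)
  have key := bm_norm ha hb hab (f := fun x => F⁻¹ * f x) (g := fun x => G⁻¹ * g x)
    (h := fun x => (F⁻¹ ^ a * G⁻¹ ^ b) * h x)
    (by rw [← ENNReal.mul_iSup]; exact ENNReal.inv_mul_cancel hf0 hF1)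
    (by rw [← ENNReal.mul_iSup]; exact ENNReal.inv_mul_cancel hg0 hG1)
    (fun x y e he => by
      rw [ENNReal.mul_rpow_of_nonneg _ _ ha.le, ENNReal.mul_rpow_of_nonneg _ _ hb.le, mul_mul_mul_comm]
      gcongr
      exact H x y e he)
  rw [ENNReal.tsum_mul_left, ENNReal.tsum_mul_left, ENNReal.tsum_mul_left] at key
  have hFi : F⁻¹ ≠ ∞ := by simpa using hf0
  have hGi : G⁻¹ ≠ ∞ := by simpa using hg0
  have h2 := (bm_amgm ha hb hab (ENNReal.mul_ne_top hFi hf) (ENNReal.mul_ne_top hGi hg)).trans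
    (mul_le_mul_right key _)
  rw [ENNReal.mul_rpow_of_nonneg _ _ ha.le, ENNReal.mul_rpow_of_nonneg _ _ hb.le, mul_mul_mul_comm,
    mul_left_comm (ENNReal.ofReal _)] at h2
  refine (ENNReal.mul_le_mul_iff_right ?_ ?_).1 h2
  · exact mul_ne_zero (ENNReal.rpow_pos_of_nonneg (by simpa using hF1) ha.le).ne'
      (ENNReal.rpow_pos_of_nonneg (by simpa using hG1) hb.le).ne'
  · exact ENNReal.mul_ne_top (ENNReal.rpow_ne_top_of_nonneg ha.le hFi) (ENNReal.rpow_ne_top_of_nonneg hb.le hGi)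

theorem bm_tsum_cons {d : ℕ} (f : (Fin (d + 1) → ℕ) → ℝ≥0∞) :
    ∑' u, f u = ∑' x : ℕ, ∑' u : Fin d → ℕ, f (Fin.cons x u) := by
  rw [← (Fin.consEquiv fun _ : Fin (d + 1) => ℕ).tsum_eq f, ENNReal.tsum_prod']
  rfl

theorem bm_pi {a b : ℝ} (ha : 0 < a) (hb : 0 < b) (hab : a + b = 1) (d : ℕ) :
    ∀ f g h : (Fin d → ℕ) → ℝ≥0∞, ∑' x, f x ≠ ∞ → ∑' x, g x ≠ ∞ →
      (∀ x y e : Fin d → ℕ, (∀ i, e i ≤ 1) → f x ^ a * g y ^ b ≤ h (x + y + e)) →
      (∑' x, f x) ^ a * (∑' x, g x) ^ b ≤ ENNReal.ofReal (a ^ a * b ^ b) ^ d * ∑' x, h x := by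
  induction d with
  | zero =>
    intro f g h _ _ H
    rw [tsum_fintype, tsum_fintype, tsum_fintype, Fintype.sum_unique, Fintype.sum_unique, Fintype.sum_unique,
      pow_zero, one_mul]
    exact (H _ _ 0 (fun i => i.elim0)).trans (le_of_eq (congrArg h (Subsingleton.elim _ _)))
  | succ d ih =>
    intro f g h hf hg H
    rw [bm_tsum_cons] at hf hg
    rw [bm_tsum_cons f, bm_tsum_cons g, bm_tsum_cons h, pow_succ', mul_assoc, ← ENNReal.tsum_mul_left]
    refine bm_dim1 ha hb hab hf hg fun x y e he => ?_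
    refine ih _ _ _ (ne_top_of_le_ne_top hf (ENNReal.le_tsum x)) (ne_top_of_le_ne_top hg (ENNReal.le_tsum y))
      fun u v w hw => ?_
    have := H (Fin.cons x u) (Fin.cons y v) (Fin.cons e w) (fun i => Fin.cases (by simpa using he) (by simpa using hw) i)
    convert this using 2
    funext i
    refine Fin.cases ?_ (fun j => ?_) i <;> simp

theorem bm_tsum_ind {d : ℕ} (P : Finset (Fin d →₀ ℕ)) :
    ∑' u : Fin d → ℕ, (if Finsupp.equivFunOnFinite.symm u ∈ P then 1 else 0 : ℝ≥0∞) = P.card := by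
  rw [Finsupp.equivFunOnFinite.symm.tsum_eq (fun u => (if u ∈ P then 1 else 0 : ℝ≥0∞)),
    tsum_eq_sum (s := P) (fun u hu => if_neg hu), Finset.sum_congr rfl (fun u hu => if_pos hu)]
  simp

theorem stBM : StBM := by
  intro d hd P Q C hP hQ H
  have hd' : (d : ℝ) ≠ 0 := by exact_mod_cast hd.ne'
  set p : ℝ := (P.card : ℝ) ^ (d : ℝ)⁻¹ with hp
  set q : ℝ := (Q.card : ℝ) ^ (d : ℝ)⁻¹ with hq
  have hp0 : 0 < p := Real.rpow_pos_of_pos (by exact_mod_cast hP.card_pos) _
  have hq0 : 0 < q := Real.rpow_pos_of_pos (by exact_mod_cast hQ.card_pos) _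
  have hpd : p ^ d = P.card := Real.rpow_inv_natCast_pow (Nat.cast_nonneg _) hd.ne'
  have hqd : q ^ d = Q.card := Real.rpow_inv_natCast_pow (Nat.cast_nonneg _) hd.ne'
  set a := p / (p + q) with ha
  set b := q / (p + q) with hb
  have ha0 : 0 < a := by positivity
  have hb0 : 0 < b := by positivity
  have hab : a + b = 1 := by rw [ha, hb, ← add_div, div_self (by positivity)]
  have key := bm_pi ha0 hb0 hab d (fun u => if Finsupp.equivFunOnFinite.symm u ∈ P then 1 else 0)
    (fun u => if Finsupp.equivFunOnFinite.symm u ∈ Q then 1 else 0)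
    (fun u => if Finsupp.equivFunOnFinite.symm u ∈ C then 1 else 0)
    (by rw [bm_tsum_ind]; exact ENNReal.natCast_ne_top _) (by rw [bm_tsum_ind]; exact ENNReal.natCast_ne_top _)
    (fun x y e he => by
      by_cases hx : Finsupp.equivFunOnFinite.symm x ∈ P
      · by_cases hy : Finsupp.equivFunOnFinite.symm y ∈ Q
        · have h1 := H _ hx _ hy (Finsupp.equivFunOnFinite.symm e) (fun i => by simpa using he i)
          have h2 : Finsupp.equivFunOnFinite.symm (x + y + e) = Finsupp.equivFunOnFinite.symm x +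
              Finsupp.equivFunOnFinite.symm y + Finsupp.equivFunOnFinite.symm e := by
            ext i; simp
          simp only [hx, hy, h2, h1, if_true, ENNReal.one_rpow, mul_one, le_refl]
        · simp [hy, hb0]
      · simp [hx, ha0])
  rw [bm_tsum_ind, bm_tsum_ind, bm_tsum_ind, ← ENNReal.ofReal_natCast, ← ENNReal.ofReal_natCast,
    ← ENNReal.ofReal_natCast C.card, ENNReal.ofReal_rpow_of_nonneg (Nat.cast_nonneg _) ha0.le,
    ENNReal.ofReal_rpow_of_nonneg (Nat.cast_nonneg _) hb0.le, ← ENNReal.ofReal_mul (by positivity),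
    ← ENNReal.ofReal_pow (by positivity), ← ENNReal.ofReal_mul (by positivity),
    ENNReal.ofReal_le_ofReal_iff (by positivity)] at key
  have h1 : a ^ a * b ^ b * (p + q) = p ^ a * q ^ b := by
    have e1 : a ^ a = p ^ a / (p + q) ^ a := Real.div_rpow hp0.le (by positivity) a
    have e2 : b ^ b = q ^ b / (p + q) ^ b := Real.div_rpow hq0.le (by positivity) b
    rw [e1, e2, div_mul_div_comm, ← Real.rpow_add (by positivity), hab, Real.rpow_one, div_mul_cancel₀ _ (by positivity)]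
  have h2 : (P.card : ℝ) ^ a * (Q.card : ℝ) ^ b = (a ^ a * b ^ b) ^ d * (p + q) ^ d := by
    rw [← mul_pow, h1, mul_pow, ← hpd, ← hqd, ← Real.rpow_natCast_mul hp0.le, ← Real.rpow_natCast_mul hq0.le,
      ← Real.rpow_mul_natCast hp0.le, ← Real.rpow_mul_natCast hq0.le, mul_comm a, mul_comm b]
  rw [h2] at key
  have h3 : (p + q) ^ d ≤ C.card := le_of_mul_le_mul_left key (by positivity)
  calc p + q = ((p + q) ^ d) ^ (d : ℝ)⁻¹ := (Real.pow_rpow_inv_natCast (by positivity) hd.ne').symm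
    _ ≤ _ := Real.rpow_le_rpow (by positivity) h3 (by positivity)

end Crest.Agent.R271
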