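import Crest.Agent.R271.Defs

/-! # Row 271, block Al.  See `Crest/Agent/R271/Blueprint.lean`, section Al. -/

set_option autoImplicit false

namespace Crest.Agent.R271

namespace Deg

/-- lattice points of degree at most `s` -/
theorem card_le_choose (d s : ℕ) (P : Finset (Fin d →₀ ℕ)) (h : ∀ u ∈ P, u.degree ≤ s) :
    P.card ≤ (s + d).choose d := by
  classical
  have h1 := Finset.card_finsuppAntidiag_nat_eq_choose (s := (Finset.univ : Finset (Fin (d + 1)))) s
  rw [Finset.card_univ, Fintype.card_fin, show d + 1 + s - 1 = s + d by omega, Nat.choose_symm_add] at h1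
  rw [← h1]
  refine Finset.card_le_card_of_injOn (fun u => Finsupp.cons (s - u.degree) u) (fun u hu => ?_)
    fun u _ v _ e => ?_
  · have := h u hu
    simp only [Finset.mem_coe, Finset.mem_finsuppAntidiag, Finset.subset_univ, and_true, Fin.sum_univ_succ,
      Finsupp.cons_zero, Finsupp.cons_succ]
    rw [← Finsupp.degree_eq_sum]
    omega
  · simpa using congrArg Finsupp.tail e

theorem fact_mul_le (d s N : ℕ) (h : N ≤ (s + d).choose d) : d.factorial * N ≤ (s + d) ^ d :=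
  calc d.factorial * N ≤ d.factorial * (s + d).choose d := Nat.mul_le_mul_left _ h
    _ = (s + 1).ascFactorial d := (Nat.ascFactorial_eq_factorial_mul_choose s d).symm
    _ ≤ _ := Nat.ascFactorial_le_pow_add s d

theorem root_le {d : ℕ} (hd : 0 < d) (s N : ℕ) (h : N ≤ (s + d).choose d) :
    ((d.factorial : ℝ) * N) ^ (d : ℝ)⁻¹ - d ≤ s := by
  have h1 : ((d.factorial : ℝ) * N) ≤ ((s : ℝ) + d) ^ d := by exact_mod_cast fact_mul_le d s N h
  have h2 := Real.rpow_le_rpow (by positivity) h1 (inv_nonneg.2 (Nat.cast_nonneg (α := ℝ) d))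
  rw [Real.pow_rpow_inv_natCast (by positivity) hd.ne'] at h2
  linarith

theorem le_choose {d : ℕ} (hd : 0 < d) (s : ℕ) : s ≤ (s + d).choose d := by
  obtain ⟨e, rfl⟩ : ∃ e, d = e + 1 := ⟨d - 1, by omega⟩
  induction s with
  | zero => exact Nat.zero_le _
  | succ s ih =>
    rw [show s + 1 + (e + 1) = (s + (e + 1)) + 1 by omega, Nat.choose_succ_succ]
    have := Nat.choose_pos (show e ≤ s + (e + 1) by omega)
    simp only [Nat.succ_eq_add_one]
    omega

theorem step {d : ℕ} (hd : 0 < d) (c : ℝ) (hc : 0 ≤ c) (N : ℕ) :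
    (d : ℝ) / (d + 1) * (c * (N + 1 : ℕ)) ^ (d : ℝ)⁻¹ * (N + 1 : ℕ) ≤
      (d : ℝ) / (d + 1) * (c * N) ^ (d : ℝ)⁻¹ * N + (c * (N + 1 : ℕ)) ^ (d : ℝ)⁻¹ := by
  have hd' : (0 : ℝ) < d := by exact_mod_cast hd
  have hN : (0 : ℝ) ≤ N := Nat.cast_nonneg N
  have hb := one_add_mul_self_le_rpow_one_add (s := -(1 / (N + 1 : ℝ))) (p := (d : ℝ)⁻¹ + 1)
    (by rw [neg_le_neg_iff, div_le_one (by positivity)]; linarith) (by simp)
  have e1 : (1 : ℝ) + -(1 / (N + 1 : ℝ)) = N / (N + 1) := by field_simp; ring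
  rw [e1, Real.rpow_add' (by positivity) (by positivity), Real.rpow_one] at hb
  have e2 : (c * N) ^ (d : ℝ)⁻¹ = (c * (N + 1 : ℕ)) ^ (d : ℝ)⁻¹ * ((N : ℝ) / (N + 1)) ^ (d : ℝ)⁻¹ := by
    rw [← Real.mul_rpow (by positivity) (by positivity)]
    congr 1
    push_cast
    field_simp
  rw [e2]
  push_cast
  have hy : 0 ≤ (c * ((N : ℝ) + 1)) ^ (d : ℝ)⁻¹ := by positivity
  generalize (c * ((N : ℝ) + 1)) ^ (d : ℝ)⁻¹ = y at hy
  generalize ((N : ℝ) / (N + 1)) ^ (d : ℝ)⁻¹ = w at hb
  have h3 : (d : ℝ) / (d + 1) * (N + 1) ≤ d / (d + 1) * (w * N) + 1 := by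
    have h4 := mul_le_mul_of_nonneg_left hb (show (0 : ℝ) ≤ d / (d + 1) * (N + 1) by positivity)
    have e3 : (d : ℝ) / (d + 1) * (N + 1) * (1 + ((d : ℝ)⁻¹ + 1) * -(1 / (N + 1 : ℝ))) =
        d / (d + 1) * (N + 1) - 1 := by field_simp; ring
    have e4 : (d : ℝ) / (d + 1) * (N + 1) * (w * (N / (N + 1))) = d / (d + 1) * (w * N) := by field_simp
    rw [e3, e4] at h4
    linarith
  nlinarith [mul_le_mul_of_nonneg_left h3 hy]

end Deg

theorem stDeg : StDeg := by
  classical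
  intro d hd P R
  induction hN : P.card generalizing P with
  | zero =>
    intro _
    rw [Finset.card_eq_zero.1 hN]
    simp
  | succ N ih =>
    intro hR
    obtain ⟨u, hu, hmax⟩ := Finset.exists_max_image P (fun u => u.degree) (Finset.card_pos.1 (by omega))
    have h1 := ih (P.erase u) (by rw [Finset.card_erase_of_mem hu]; omega) (by omega)
    have h2 := Deg.root_le hd _ _ (hN ▸ Deg.card_le_choose d _ P hmax)
    have h3 := Deg.root_le hd R _ (hR.trans (Deg.le_choose hd R))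
    have h4 := Deg.step hd d.factorial (Nat.cast_nonneg _) N
    rw [← Finset.add_sum_erase P _ hu]
    have h5 := le_min h2 h3
    have h6 : ((N + 1 : ℕ) : ℝ) = N + 1 := by push_cast; rfl
    have h7 : (d : ℝ) * (N + 1 : ℕ) = d * N + d := by rw [h6]; ring
    linarith

end Crest.Agent.R271
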