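import Crest.Agent.R271.Defs

/-! # Row 271, block Al.  See `Crest/Agent/R271/Blueprint.lean`, section Al. -/

set_option autoImplicit false
set_option linter.unusedSectionVars false

open Filter Topology Polynomial

namespace Crest.Agent.R271

/-- Lying over for complex points. -/
theorem dens_lift {A D : Type} [CommRing A] [CommRing D] [Algebra ℂ A] [Algebra ℂ D]
    [Algebra.FiniteType ℂ D] (f : A →ₐ[ℂ] D) (hf : f.toRingHom.IsIntegral) (φ : A →ₐ[ℂ] ℂ)
    (hk : ∀ a, f a = 0 → φ a = 0) : ∃ y : D →ₐ[ℂ] ℂ, ∀ a, y (f a) = φ a := by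
  algebraize [f.toRingHom]
  have hsurj : Function.Surjective φ := fun c => ⟨algebraMap ℂ A c, by simp⟩
  have hP : (RingHom.ker φ.toRingHom).IsMaximal := RingHom.ker_isMaximal_of_surjective _ hsurj
  obtain ⟨Q, hQ, hQP⟩ := Ideal.exists_ideal_over_maximal_of_isIntegral (S := D)
    (RingHom.ker φ.toRingHom) fun a ha => hk a ha
  let : Field (D ⧸ Q) := Ideal.Quotient.field Q
  have : Module.Finite ℂ (D ⧸ Q) := finite_of_finite_type_of_isJacobsonRing ℂ (D ⧸ Q)
  have hb : Function.Bijective (Algebra.ofId ℂ (D ⧸ Q)) :=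
    IsAlgClosed.algebraMap_bijective_of_isIntegral
  set e : ℂ ≃ₐ[ℂ] (D ⧸ Q) := AlgEquiv.ofBijective (Algebra.ofId ℂ (D ⧸ Q)) hb with he
  refine ⟨(e.symm : (D ⧸ Q) →ₐ[ℂ] ℂ).comp (Ideal.Quotient.mkₐ ℂ Q), fun a => ?_⟩
  have h1 : a - algebraMap ℂ A (φ a) ∈ Q.comap (algebraMap A D) := by
    rw [hQP]
    simp
  have h2 : f a - algebraMap ℂ D (φ a) ∈ Q := by
    have : f (a - algebraMap ℂ A (φ a)) ∈ Q := h1
    simpa using this
  have h3 : Ideal.Quotient.mkₐ ℂ Q (f a) = algebraMap ℂ (D ⧸ Q) (φ a) := by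
    rw [← (Ideal.Quotient.mkₐ ℂ Q).commutes]
    exact Ideal.Quotient.eq.mpr h2
  rw [AlgHom.comp_apply, h3, AlgHom.commutes]
  rfl

/-- A monic polynomial has a root near a point where it is small. -/
theorem dens_near_root {p : ℂ[X]} (hp : p.Monic) (hd : 0 < p.natDegree) (r₀ : ℂ) :
    ∃ r, p.IsRoot r ∧ ‖r - r₀‖ ^ p.natDegree ≤ ‖p.eval r₀‖ := by
  have hs : p.Splits := IsAlgClosed.splits p
  have hc : p.roots.card = p.natDegree := hs.natDegree_eq_card_roots.symm
  have hne : p.roots.toFinset.Nonempty := by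
    rw [Multiset.toFinset_nonempty]
    intro h
    rw [h] at hc
    simp at hc
    omega
  obtain ⟨r, hr, hmin⟩ := p.roots.toFinset.exists_min_image (fun r => ‖r - r₀‖) hne
  refine ⟨r, (mem_roots hp.ne_zero).mp (Multiset.mem_toFinset.mp hr), ?_⟩
  rw [hs.eval_eq_prod_roots_of_monic hp, ← hc]
  have : ∀ s : Multiset ℂ, (∀ t ∈ s, ‖r - r₀‖ ≤ ‖t - r₀‖) →
      ‖r - r₀‖ ^ s.card ≤ ‖(s.map (r₀ - ·)).prod‖ := by
    intro s
    induction s using Multiset.induction_on with
    | empty => simp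
    | cons t s ih =>
      intro h
      rw [Multiset.map_cons, Multiset.prod_cons, Multiset.card_cons, norm_mul, pow_succ']
      refine mul_le_mul ?_ (ih fun u hu => h u (Multiset.mem_cons_of_mem hu)) (by positivity)
        (norm_nonneg _)
      rw [norm_sub_rev r₀ t]
      exact h t (Multiset.mem_cons_self _ _)
  exact this _ fun t ht => hmin t (Multiset.mem_toFinset.mpr ht)

theorem dens_root_bound {p : ℂ[X]} (hp : p.Monic) {M : ℝ} (hM : ∀ i, ‖p.coeff i‖ ≤ M) {r : ℂ}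
    (hr : p.IsRoot r) : ‖r‖ ≤ M + 1 := by
  have h0 : 0 ≤ M := (norm_nonneg _).trans (hM 0)
  have h1 := hr.norm_lt_cauchyBound hp.ne_zero
  have h2 : p.cauchyBound ≤ ⟨M, h0⟩ + 1 := by
    unfold cauchyBound
    rw [hp.leadingCoeff, nnnorm_one, div_one]
    gcongr
    exact Finset.sup_le fun i _ => hM i
  exact_mod_cast (h1.le.trans h2)

section

variable {s : ℕ} {D : Type} [CommRing D] [IsDomain D] [Algebra ℂ D] [Algebra.FiniteType ℂ D]
  [Algebra (MvPolynomial (Fin s) ℂ) D] [IsScalarTower ℂ (MvPolynomial (Fin s) ℂ) D]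
  [Algebra.IsIntegral (MvPolynomial (Fin s) ℂ) D]

theorem dens_isRoot {y : D →ₐ[ℂ] ℂ} {v : Fin s → ℂ}
    (hy : ∀ b, y (algebraMap (MvPolynomial (Fin s) ℂ) D b) = MvPolynomial.eval v b) (a : D) :
    ((minpoly (MvPolynomial (Fin s) ℂ) a).map (MvPolynomial.eval v)).IsRoot (y a) := by
  have h : (y : D →+* ℂ).comp (algebraMap (MvPolynomial (Fin s) ℂ) D) = MvPolynomial.eval v :=
    RingHom.ext hy
  have h2 := congrArg (y : D →+* ℂ) (minpoly.aeval (MvPolynomial (Fin s) ℂ) a)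
  rw [aeval_def, hom_eval₂, h, map_zero] at h2
  rw [IsRoot, eval_map]
  exact h2

theorem dens_root_lift [FaithfulSMul (MvPolynomial (Fin s) ℂ) D] (a : D) (v : Fin s → ℂ) (r : ℂ)
    (hr : ((minpoly (MvPolynomial (Fin s) ℂ) a).map (MvPolynomial.eval v)).IsRoot r) :
    ∃ y : D →ₐ[ℂ] ℂ,
      (∀ b, y (algebraMap (MvPolynomial (Fin s) ℂ) D b) = MvPolynomial.eval v b) ∧ y a = r := by
  set f : (MvPolynomial (Fin s) ℂ)[X] →ₐ[ℂ] D := (Polynomial.aeval a).restrictScalars ℂ with hf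
  set φ : (MvPolynomial (Fin s) ℂ)[X] →ₐ[ℂ] ℂ :=
    Polynomial.eval₂AlgHom (MvPolynomial.aeval v) r (fun _ => Commute.all _ _) with hφ
  have hφ' : ∀ p, φ p = p.eval₂ (MvPolynomial.eval v) r := fun p => rfl
  have hint : f.toRingHom.IsIntegral := by
    refine RingHom.IsIntegral.tower_top (Polynomial.C) _ ?_
    have : f.toRingHom.comp Polynomial.C = algebraMap (MvPolynomial (Fin s) ℂ) D := by
      refine RingHom.ext fun b => ?_
      simp [hf]
    rw [this]
    exact fun x => Algebra.IsIntegral.isIntegral x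
  obtain ⟨y, hy⟩ := dens_lift f hint φ fun p hp => by
    obtain ⟨q, rfl⟩ := minpoly.isIntegrallyClosed_dvd (Algebra.IsIntegral.isIntegral a) hp
    rw [map_mul, hφ', ← eval_map, hr.eq_zero, zero_mul]
  refine ⟨y, fun b => ?_, ?_⟩
  · have := hy (Polynomial.C b)
    rw [hφ'] at this
    simpa [hf] using this
  · have := hy Polynomial.X
    rw [hφ'] at this
    simpa [hf] using this

theorem dens_finite (v : Fin s → ℂ) : Set.Finite {y : D →ₐ[ℂ] ℂ |
    ∀ b, y (algebraMap (MvPolynomial (Fin s) ℂ) D b) = MvPolynomial.eval v b} := by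
  obtain ⟨W, hW⟩ := Algebra.FiniteType.out (R := ℂ) (A := D)
  refine Set.Finite.of_injOn (f := fun y (w : W) => y w)
    (t := Set.pi Set.univ fun w : W =>
      (((minpoly (MvPolynomial (Fin s) ℂ) (w : D)).map (MvPolynomial.eval v)).roots.toFinset :
        Set ℂ)) (fun y hy w _ => ?_) (fun y _ y' _ h => ?_)
    (Set.Finite.pi fun w => Finset.finite_toSet _)
  · simp only [Finset.mem_coe, Multiset.mem_toFinset]
    exact (mem_roots ((minpoly.monic (Algebra.IsIntegral.isIntegral _)).map _).ne_zero).mpr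
      (dens_isRoot hy _)
  · exact AlgHom.ext_of_adjoin_eq_top hW fun w hw => congrFun h ⟨w, hw⟩

theorem dens_sep {S : Set (D →ₐ[ℂ] ℂ)} (hS : S.Finite) (x : D →ₐ[ℂ] ℂ) :
    ∃ c : D, ∀ y ∈ S, y c = x c → y = x := by
  classical
  have h : ∀ y : D →ₐ[ℂ] ℂ, ∃ b, y ≠ x → x b ≠ y b := fun y => by
    by_cases hy : y = x
    · exact ⟨0, fun h => absurd hy h⟩
    · by_contra hc
      push Not at hc
      exact hy (AlgHom.ext fun b => (hc b).2.symm)
  choose b hb using h
  refine ⟨∏ y ∈ hS.toFinset.erase x, (b y - algebraMap ℂ D (y (b y))), fun y hy hc => ?_⟩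
  by_contra hne
  have h0 : y (∏ y ∈ hS.toFinset.erase x, (b y - algebraMap ℂ D (y (b y)))) = 0 := by
    rw [map_prod]
    exact Finset.prod_eq_zero (i := y) (by simp [hne, hy]) (by simp)
  rw [hc, map_prod, Finset.prod_eq_zero_iff] at h0
  obtain ⟨y', hy', h1⟩ := h0
  refine hb y' (Finset.ne_of_mem_erase hy') ?_
  simpa [sub_eq_zero] using h1

theorem dens_points {N : MvPolynomial (Fin s) ℂ} (hN : N ≠ 0) (v₀ : Fin s → ℂ) :
    ∃ v : ℕ → Fin s → ℂ, (∀ ν, MvPolynomial.eval (v ν) N ≠ 0) ∧ Tendsto v atTop (𝓝 v₀) := by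
  have h : ∀ ν : ℕ, ∃ v : Fin s → ℂ, MvPolynomial.eval v N ≠ 0 ∧
      ∀ i, v i ∈ Metric.ball (v₀ i) (1 / ((ν : ℝ) + 1)) := fun ν => by
    by_contra hc
    push Not at hc
    refine hN (MvPolynomial.funext_set (fun i => Metric.ball (v₀ i) (1 / ((ν : ℝ) + 1)))
      (fun i => infinite_of_mem_nhds (v₀ i) (Metric.ball_mem_nhds _ (by positivity)))
      fun v hv => ?_)
    by_contra h0
    obtain ⟨i, hi⟩ := hc v (by simpa using h0)
    exact hi (hv i (Set.mem_univ _))
  choose v hv hb using h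
  refine ⟨v, hv, tendsto_pi_nhds.mpr fun i => ?_⟩
  rw [tendsto_iff_dist_tendsto_zero]
  exact squeeze_zero (fun _ => dist_nonneg) (fun ν => (Metric.mem_ball.mp (hb ν i)).le)
    tendsto_one_div_add_atTop_nhds_zero_nat

theorem dens_bounded {v : ℕ → Fin s → ℂ} {v₀ : Fin s → ℂ} (hv : Tendsto v atTop (𝓝 v₀))
    {y : ℕ → (D →ₐ[ℂ] ℂ)}
    (hy : ∀ ν b, y ν (algebraMap (MvPolynomial (Fin s) ℂ) D b) = MvPolynomial.eval (v ν) b)
    (a : D) : ∃ M : ℝ, ∀ ν, ‖y ν a‖ ≤ M := by
  set p := minpoly (MvPolynomial (Fin s) ℂ) a with hp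
  have h1 : ∀ i, ∃ M : ℝ, ∀ ν, ‖MvPolynomial.eval (v ν) (p.coeff i)‖ ≤ M := fun i => by
    have := (((MvPolynomial.continuous_eval (p.coeff i)).tendsto v₀).comp hv).norm.bddAbove_range
    obtain ⟨M, hM⟩ := this
    exact ⟨M, fun ν => hM ⟨ν, rfl⟩⟩
  choose M hM using h1
  have hM0 : ∀ i, 0 ≤ M i := fun i => (norm_nonneg _).trans (hM i 0)
  refine ⟨∑ i ∈ p.support, M i + 1, fun ν => ?_⟩
  refine dens_root_bound ((minpoly.monic (Algebra.IsIntegral.isIntegral a)).map _) (fun i => ?_)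
    (dens_isRoot (hy ν) a)
  rw [coeff_map]
  by_cases hi : i ∈ p.support
  · exact (hM i ν).trans (Finset.single_le_sum (fun j _ => hM0 j) hi)
  · rw [notMem_support_iff.mp hi, map_zero, norm_zero]
    exact Finset.sum_nonneg fun j _ => hM0 j

/-- Ultralimits of bounded families of points are points. -/
theorem dens_ultra (U : Ultrafilter ℕ) {y : ℕ → (D →ₐ[ℂ] ℂ)}
    (hb : ∀ a, ∃ M : ℝ, ∀ ν, ‖y ν a‖ ≤ M) :
    ∃ z : D →ₐ[ℂ] ℂ, ∀ a, Tendsto (fun ν => y ν a) U (𝓝 (z a)) := by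
  have h : ∀ a, ∃ c, Tendsto (fun ν => y ν a) U (𝓝 c) := fun a => by
    obtain ⟨M, hM⟩ := hb a
    obtain ⟨c, -, hc⟩ := (isCompact_closedBall (0 : ℂ) M).ultrafilter_le_nhds
      (U.map fun ν => y ν a) (by
        rw [Ultrafilter.coe_map, le_principal_iff, mem_map]
        exact Eventually.of_forall fun ν => mem_closedBall_zero_iff.mpr (hM ν))
    exact ⟨c, hc⟩
  choose z hz using h
  have hc : ∀ c : ℂ, z (algebraMap ℂ D c) = c := fun c =>
    tendsto_nhds_unique (hz _) (by simp)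
  refine ⟨{ toFun := z
            map_one' := by simpa using hc 1
            map_mul' := fun a b => tendsto_nhds_unique (hz _)
              (by simpa using (hz a).mul (hz b))
            map_zero' := by simpa using hc 0
            map_add' := fun a b => tendsto_nhds_unique (hz _)
              (by simpa using (hz a).add (hz b))
            commutes' := hc }, hz⟩

theorem dens_main [FaithfulSMul (MvPolynomial (Fin s) ℂ) D] (x : D →ₐ[ℂ] ℂ) (h : D) (hh : h ≠ 0) :
    ∃ y : ℕ → (D →ₐ[ℂ] ℂ), (∀ ν, y ν h ≠ 0) ∧ ∀ a, Tendsto (fun ν => y ν a) atTop (𝓝 (x a)) := by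
  set v₀ : Fin s → ℂ := fun i => x (algebraMap (MvPolynomial (Fin s) ℂ) D (MvPolynomial.X i))
    with hv₀
  have hx : ∀ b, x (algebraMap (MvPolynomial (Fin s) ℂ) D b) = MvPolynomial.eval v₀ b := by
    intro b
    have : x.comp (IsScalarTower.toAlgHom ℂ (MvPolynomial (Fin s) ℂ) D) = MvPolynomial.aeval v₀ :=
      MvPolynomial.algHom_ext fun i => by simp [hv₀]
    exact AlgHom.congr_fun this b
  obtain ⟨N, hNh, hN⟩ := Submodule.exists_mem_ne_zero_of_ne_bot
    (Ideal.comap_ne_bot_of_integral_mem (R := MvPolynomial (Fin s) ℂ) hh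
      (Ideal.mem_span_singleton_self h) (Algebra.IsIntegral.isIntegral h))
  obtain ⟨h', hh'⟩ := Ideal.mem_span_singleton.mp (Ideal.mem_comap.mp hNh)
  obtain ⟨c, hc⟩ := dens_sep (dens_finite (D := D) v₀) x
  obtain ⟨v, hvN, hv⟩ := dens_points hN v₀
  set Q := minpoly (MvPolynomial (Fin s) ℂ) c with hQ
  have hQm : Q.Monic := minpoly.monic (Algebra.IsIntegral.isIntegral c)
  have hQd : 0 < Q.natDegree := minpoly.natDegree_pos (Algebra.IsIntegral.isIntegral c)
  have h1 : ∀ ν, ∃ r, (Q.map (MvPolynomial.eval (v ν))).IsRoot r ∧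
      ‖r - x c‖ ^ Q.natDegree ≤ ‖(Q.map (MvPolynomial.eval (v ν))).eval (x c)‖ := fun ν => by
    have := dens_near_root (hQm.map (MvPolynomial.eval (v ν)))
      (by rw [hQm.natDegree_map]; exact hQd) (x c)
    rwa [hQm.natDegree_map] at this
  choose r hr hrn using h1
  have h2 : Tendsto (fun ν => (Q.map (MvPolynomial.eval (v ν))).eval (x c)) atTop (𝓝 0) := by
    have e : ∀ w : Fin s → ℂ, (Q.map (MvPolynomial.eval w)).eval (x c) =
        MvPolynomial.eval w (Q.eval (MvPolynomial.C (x c))) := fun w => by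
      rw [← Polynomial.eval₂_at_apply, eval_map]
      simp
    simp only [e]
    rw [← (dens_isRoot hx c).eq_zero, e]
    exact ((MvPolynomial.continuous_eval _).tendsto v₀).comp hv
  have h3 : Tendsto r atTop (𝓝 (x c)) := by
    rw [tendsto_iff_norm_sub_tendsto_zero]
    have h4 : Tendsto (fun ν => ‖r ν - x c‖ ^ Q.natDegree) atTop (𝓝 0) :=
      squeeze_zero (fun _ => by positivity) hrn (by simpa using h2.norm)
    have h5 := h4.rpow_const (p := (Q.natDegree : ℝ)⁻¹) (Or.inr (by positivity))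
    rw [Real.zero_rpow (by positivity)] at h5
    refine h5.congr fun ν => ?_
    exact Real.pow_rpow_inv_natCast (norm_nonneg _) hQd.ne'
  choose y hy hyc using fun ν => dens_root_lift c (v ν) (r ν) (hr ν)
  refine ⟨y, fun ν h0 => hvN ν ?_, fun a => ?_⟩
  · rw [← hy, hh', map_mul, h0, zero_mul]
  · rw [tendsto_iff_ultrafilter]
    intro U hU
    obtain ⟨z, hz⟩ := dens_ultra U (dens_bounded hv hy)
    have hzx : z = x := by
      refine hc z (fun b => tendsto_nhds_unique (hz _) ?_) (tendsto_nhds_unique (hz c) ?_)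
      · simp only [hy]
        exact (((MvPolynomial.continuous_eval b).tendsto v₀).comp hv).mono_left hU
      · simp only [hyc]
        exact h3.mono_left hU
    rw [← hzx]
    exact hz a

end

theorem stDens : StDens := by
  intro D _ _ _ _ x h hh
  obtain ⟨s, g, hinj, hint⟩ := exists_integral_inj_algHom_of_fg ℂ D
  algebraize [g.toRingHom]
  have : FaithfulSMul (MvPolynomial (Fin s) ℂ) D :=
    (faithfulSMul_iff_algebraMap_injective _ _).mpr hinj
  exact dens_main (s := s) x h hh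

end Crest.Agent.R271
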