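import Crest.Agent.R271.Defs

/-! # Row 271, block Al.  See `Crest/Agent/R271/Blueprint.lean`, section Al. -/

set_option autoImplicit false

namespace Crest.Agent.R271

/-- in characteristic zero an algebraic extension of domains is étale at the generic point -/
theorem gen_isEtaleAt_bot {R S : Type} [CommRing R] [CommRing S] [Algebra R S] [IsDomain R] [IsDomain S]
    [FaithfulSMul R S] [CharZero R] [Algebra.IsAlgebraic R S] : Algebra.IsEtaleAt R (⊥ : Ideal S) := by
  have : IsFractionRing S (Localization.AtPrime (⊥ : Ideal S)) := by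
    simpa [Ideal.primeCompl_bot] using Localization.isLocalization (M := (⊥ : Ideal S).primeCompl)
  let : Field (Localization.AtPrime (⊥ : Ideal S)) := IsFractionRing.toField S
  have : FaithfulSMul R (Localization.AtPrime (⊥ : Ideal S)) := by
    rw [faithfulSMul_iff_algebraMap_injective, IsScalarTower.algebraMap_eq R S (Localization.AtPrime ⊥)]
    exact (IsFractionRing.injective S _).comp (FaithfulSMul.algebraMap_injective R S)
  let := FractionRing.liftAlgebra R (Localization.AtPrime (⊥ : Ideal S))
  have h1 := (IsFractionRing.isAlgebraic_iff' R S (Localization.AtPrime (⊥ : Ideal S))).1 inferInstance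
  have : Algebra.IsAlgebraic (FractionRing R) (Localization.AtPrime (⊥ : Ideal S)) :=
    ⟨fun x => (IsFractionRing.isAlgebraic_iff R (FractionRing R) _).1 (h1.isAlgebraic x)⟩
  have : Algebra.FormallyEtale (FractionRing R) (Localization.AtPrime (⊥ : Ideal S)) :=
    Algebra.FormallyEtale.of_isSeparable _ _
  exact Algebra.FormallyEtale.comp R (FractionRing R) (Localization.AtPrime ⊥)

theorem stGen : StGen := by
  intro d D _ _ _ _ ζ hζ
  let _ : Algebra (MvPolynomial (Fin d) ℂ) D := (MvPolynomial.aeval ζ).toRingHom.toAlgebra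
  have : IsScalarTower ℂ (MvPolynomial (Fin d) ℂ) D :=
    IsScalarTower.of_algebraMap_eq fun c => ((MvPolynomial.aeval ζ).commutes c).symm
  have : FaithfulSMul (MvPolynomial (Fin d) ℂ) D := (faithfulSMul_iff_algebraMap_injective _ _).2 hζ.1
  have := hζ.isAlgebraic
  have : Algebra.IsAlgebraic (MvPolynomial (Fin d) ℂ) D :=
    Algebra.IsAlgebraic.of_ringHom_of_comp_eq (f := hζ.1.aevalEquiv.toRingEquiv) (g := RingHom.id D)
      hζ.1.aevalEquiv.surjective Function.injective_id (RingHom.ext fun p => hζ.1.algebraMap_aevalEquiv p)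
  have : Algebra.FiniteType (MvPolynomial (Fin d) ℂ) D :=
    Algebra.FiniteType.of_restrictScalars_finiteType ℂ _ _
  have : Algebra.FinitePresentation (MvPolynomial (Fin d) ℂ) D :=
    Algebra.FinitePresentation.of_finiteType.1 this
  have : Algebra.IsEtaleAt (MvPolynomial (Fin d) ℂ) (⊥ : Ideal D) := gen_isEtaleAt_bot
  obtain ⟨h, hh, he⟩ := Algebra.exists_etale_of_isEtaleAt (R := MvPolynomial (Fin d) ℂ) (⊥ : Ideal D)
  refine ⟨h, hh, ?_⟩
  rw [← RingHom.etale_algebraMap] at he
  convert he using 1
  refine MvPolynomial.ringHom_ext (fun c => ?_) fun i => ?_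
  · rw [← MvPolynomial.algebraMap_eq, ← IsScalarTower.algebraMap_apply]
    exact AlgHom.commutes _ c
  · rw [IsScalarTower.algebraMap_apply (MvPolynomial (Fin d) ℂ) D]
    simp [RingHom.algebraMap_toAlgebra]

end Crest.Agent.R271
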