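import Crest.Agent.R271.Al.Tay
import Crest.Agent.R271.Al.Gen
import Crest.Agent.R271.Al.Dens
import Crest.Agent.R271.Al.BM
import Crest.Agent.R271.Al.Deg

/-! # Row 271, block Al.  See `Crest/Agent/R271/Blueprint.lean`, section Al. -/

namespace Crest.Agent.R271

theorem alb : AlB := ⟨stTay, stGen, stDens, stBM, stDeg⟩

end Crest.Agent.R271
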