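import Crest.Agent.R271.Defs

/-! # Row 271, block Al.  See `Crest/Agent/R271/Blueprint.lean`, section Al. -/

set_option autoImplicit false

namespace Crest.Agent.R271

theorem tay_ext {R A B : Type} [CommRing R] [CommRing A] [CommRing B] {φ : R →+* A} (hφ : φ.Etale)
    (I : Ideal B) (hI : IsNilpotent I) (g₁ g₂ : A →+* B) (h0 : g₁.comp φ = g₂.comp φ)
    (H : ∀ x, g₁ x - g₂ x ∈ I) : g₁ = g₂ := by
  letI := φ.toAlgebra
  letI := (g₁.comp φ).toAlgebra
  have : Algebra.Etale R A := hφ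
  have h := Algebra.FormallyUnramified.ext (R := R) (A := A) I hI
    (g₁ := { g₁ with commutes' := fun _ => rfl })
    (g₂ := { g₂ with commutes' := fun r => (RingHom.congr_fun h0 r).symm })
    fun x => Ideal.Quotient.eq.2 (H x)
  exact RingHom.ext fun x => AlgHom.congr_fun h x

theorem tay_lift {R A S : Type} [CommRing R] [CommRing A] [CommRing S] {φ : R →+* A} (hφ : φ.Etale)
    (I : Ideal S) [IsAdicComplete I S] (ψ : R →+* S) (f : A →+* S ⧸ I)
    (h : f.comp φ = (Ideal.Quotient.mk I).comp ψ) :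
    ∃ g : A →+* S, g.comp φ = ψ ∧ ∀ x, Ideal.Quotient.mk I (g x) = f x := by
  letI := φ.toAlgebra
  letI := ψ.toAlgebra
  have : Algebra.Etale R A := hφ
  obtain ⟨g, hg⟩ := Algebra.FormallySmooth.exists_mkₐ_comp_eq_of_isAdicComplete (R := R) (A := A)
    (I := I) { f with commutes' := fun r => RingHom.congr_fun h r }
  exact ⟨g.toRingHom, RingHom.ext fun r => g.commutes r, fun x => AlgHom.congr_fun hg x⟩

theorem tay_noeth {R A : Type} [CommRing R] [CommRing A] [IsNoetherianRing R] {φ : R →+* A}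
    (hφ : φ.Etale) : IsNoetherianRing A := by
  letI := φ.toAlgebra
  have : Algebra.Etale R A := hφ
  exact Algebra.FiniteType.isNoetherianRing R A

theorem tay_nil {A : Type} [CommRing A] {𝔪 K : Ideal A} {a : ℕ} (h : 𝔪 ^ a ≤ K) :
    IsNilpotent (𝔪.map (Ideal.Quotient.mk K)) := by
  refine ⟨a, ?_⟩
  rw [← Ideal.map_pow, Submodule.zero_eq_bot]
  exact eq_bot_mono (Ideal.map_mono h) (Ideal.map_quotient_self _)

section
variable {d : ℕ} {D : Type} [CommRing D] [Algebra ℂ D] {ζ : Fin d → D}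
  (hζ : (MvPolynomial.aeval ζ : MvPolynomial (Fin d) ℂ →ₐ[ℂ] D).toRingHom.Etale) (y : D →ₐ[ℂ] ℂ)
include hζ

theorem tay_exists : ∃ T : D →ₐ[ℂ] MvPowerSeries (Fin d) ℂ,
    (∀ i, T (ζ i) = MvPowerSeries.C (y (ζ i)) + MvPowerSeries.X i) ∧
    ∀ g, MvPowerSeries.constantCoeff (T g) = y g := by
  obtain ⟨g, h1, h2⟩ := tay_lift hζ
    (Ideal.span (Set.range MvPowerSeries.X) : Ideal (MvPowerSeries (Fin d) ℂ))
    (MvPolynomial.aeval fun i => MvPowerSeries.C (y (ζ i)) + MvPowerSeries.X i :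
      MvPolynomial (Fin d) ℂ →ₐ[ℂ] MvPowerSeries (Fin d) ℂ).toRingHom
    ((Ideal.Quotient.mk _).comp (MvPowerSeries.C.comp y.toRingHom)) (by
      refine MvPolynomial.ringHom_ext (fun c => ?_) fun i => ?_
      · simp [MvPowerSeries.algebraMap_apply]
      · have : Ideal.Quotient.mk (Ideal.span (Set.range MvPowerSeries.X) :
            Ideal (MvPowerSeries (Fin d) ℂ)) (MvPowerSeries.X i) = 0 :=
          Ideal.Quotient.eq_zero_iff_mem.2 (Ideal.subset_span ⟨i, rfl⟩)
        simp [this])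
  refine ⟨{ g with commutes' := fun c => ?_ }, fun i => ?_, fun x => ?_⟩
  · simpa using RingHom.congr_fun h1 (MvPolynomial.C c)
  · simpa using RingHom.congr_fun h1 (MvPolynomial.X i)
  · have h3 : (Ideal.span (Set.range MvPowerSeries.X) : Ideal (MvPowerSeries (Fin d) ℂ)) ≤
        RingHom.ker MvPowerSeries.constantCoeff := by
      rw [Ideal.span_le]
      rintro _ ⟨i, rfl⟩
      exact MvPowerSeries.constantCoeff_X i
    have h4 := h3 (Ideal.Quotient.eq.1 (h2 x))
    rw [RingHom.mem_ker, map_sub, sub_eq_zero] at h4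
    simpa using h4

theorem tay_mem (T : D →ₐ[ℂ] MvPowerSeries (Fin d) ℂ)
    (h1 : ∀ i, T (ζ i) = MvPowerSeries.C (y (ζ i)) + MvPowerSeries.X i)
    (h2 : ∀ g, MvPowerSeries.constantCoeff (T g) = y g) (g : D) (a : ℕ)
    (ha : (a : ℕ∞) ≤ (T g).order) : g ∈ RingHom.ker y ^ a := by
  rcases eq_or_ne a 0 with rfl | ha0
  · simp
  set θ : MvPolynomial (Fin d) ℂ →+* D :=
    (MvPolynomial.aeval fun i => ζ i - algebraMap ℂ D (y (ζ i)) :
      MvPolynomial (Fin d) ℂ →ₐ[ℂ] D).toRingHom with hθ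
  have hle : MvPolynomial.idealOfVars (Fin d) ℂ ≤ (RingHom.ker y).comap θ := by
    rw [Ideal.span_le]
    rintro _ ⟨i, rfl⟩
    simp [hθ, RingHom.mem_ker]
  have hle' : MvPolynomial.idealOfVars (Fin d) ℂ ^ a ≤ (RingHom.ker y ^ a).comap θ :=
    (Ideal.pow_right_mono hle a).trans (Ideal.le_comap_pow _ a)
  let σ : MvPowerSeries (Fin d) ℂ →+* D ⧸ RingHom.ker y ^ a :=
    (Ideal.quotientMap _ θ hle').comp (MvPowerSeries.truncTotalAlgHom (Fin d) ℂ a).toRingHom
  have hσ : ∀ p, σ p = Ideal.Quotient.mk _ (θ (MvPowerSeries.truncTotal a p)) := fun p => rfl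
  have hσ' : ∀ q : MvPolynomial (Fin d) ℂ, σ q = Ideal.Quotient.mk _ (θ q) := fun q =>
    congrArg (Ideal.quotientMap _ θ hle') ((MvPowerSeries.truncTotalAlgHom (Fin d) ℂ a).commutes q)
  have hy : ∀ q, y (θ q) = MvPolynomial.constantCoeff q := fun q =>
    RingHom.congr_fun (f := y.toRingHom.comp θ) (g := MvPolynomial.constantCoeff)
      (MvPolynomial.ringHom_ext (fun c => by simp [hθ]) fun i => by simp [hθ]) q
  have key := tay_ext hζ _ (tay_nil (le_refl (RingHom.ker y ^ a))) (σ.comp T.toRingHom)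
    (Ideal.Quotient.mk _) (by
      refine MvPolynomial.ringHom_ext (fun c => ?_) fun i => ?_
      · have := hσ' (MvPolynomial.C c)
        simpa [hθ, MvPowerSeries.algebraMap_apply] using this
      · have := hσ' (MvPolynomial.C (y (ζ i)) + MvPolynomial.X i)
        simpa [hθ, h1] using this) fun x => by
      change σ (T x) - _ ∈ _
      rw [hσ, ← map_sub]
      refine Ideal.mem_map_of_mem _ ?_
      rw [RingHom.mem_ker, map_sub, hy, MvPowerSeries.constantCoeff_truncTotal_eq_ite,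
        if_pos (Nat.pos_of_ne_zero ha0), h2, sub_self]
  have h3 : MvPowerSeries.truncTotal a (T g) = 0 := by
    ext x
    rw [MvPowerSeries.coeff_truncTotal_eq_ite, MvPolynomial.coeff_zero]
    split_ifs with hx
    · exact MvPowerSeries.coeff_of_lt_order (lt_of_lt_of_le (by exact_mod_cast hx) ha)
    · rfl
  have h4 : σ (T g) = Ideal.Quotient.mk _ g := RingHom.congr_fun key g
  rw [hσ, h3, map_zero, map_zero] at h4
  exact Ideal.Quotient.eq_zero_iff_mem.1 h4.symm

theorem tay_loc : ∃ h : D, y h ≠ 0 ∧ Ideal.span {h} * RingHom.ker y ≤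
    Ideal.span (Set.range fun i => ζ i - algebraMap ℂ D (y (ζ i))) := by
  have := tay_noeth hζ
  set J := Ideal.span (Set.range fun i => ζ i - algebraMap ℂ D (y (ζ i))) with hJ
  have key := tay_ext hζ _ (tay_nil (le_sup_right : RingHom.ker y ^ 2 ≤ J ⊔ RingHom.ker y ^ 2))
    (Ideal.Quotient.mk _) ((Ideal.Quotient.mk _).comp ((algebraMap ℂ D).comp y.toRingHom)) (by
      refine MvPolynomial.ringHom_ext (fun c => by simp) fun i => ?_
      have : Ideal.Quotient.mk (J ⊔ RingHom.ker y ^ 2) (ζ i) =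
          Ideal.Quotient.mk _ (algebraMap ℂ D (y (ζ i))) :=
        Ideal.Quotient.eq.2 (Ideal.mem_sup_left (Ideal.subset_span ⟨i, rfl⟩))
      simpa using this) fun x => by
      change _ - Ideal.Quotient.mk _ (algebraMap ℂ D (y x)) ∈ _
      rw [← map_sub]
      refine Ideal.mem_map_of_mem _ ?_
      simp [RingHom.mem_ker]
  have h1 : RingHom.ker y ≤ J ⊔ RingHom.ker y • RingHom.ker y := fun x hx => by
    have h2 : Ideal.Quotient.mk _ x = Ideal.Quotient.mk _ (algebraMap ℂ D (y x)) :=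
      RingHom.congr_fun key x
    rw [RingHom.mem_ker.1 hx, map_zero, map_zero] at h2
    rw [smul_eq_mul, ← sq]
    exact Ideal.Quotient.eq_zero_iff_mem.1 h2
  obtain ⟨h, h2, h3⟩ := Submodule.exists_sub_one_mem_and_smul_le_of_fg_of_le_sup
    (IsNoetherian.noetherian (RingHom.ker y)) le_rfl h1
  refine ⟨h, ?_, ?_⟩
  · rw [RingHom.mem_ker, map_sub, map_one, sub_eq_zero] at h2
    rw [h2]
    exact one_ne_zero
  · rw [Ideal.span_singleton_mul_le_iff]
    exact fun z hz => h3 (Submodule.smul_mem_pointwise_smul z h _ hz)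

end

theorem stTay : StTay := by
  intro d D _ _ _ ζ hζ y
  have := tay_noeth hζ
  obtain ⟨T, h1, h2⟩ := tay_exists hζ y
  obtain ⟨h, h3, h4⟩ := tay_loc hζ y
  refine ⟨T, (injective_iff_map_eq_zero T).2 fun g hg => ?_, h1, h2, fun g a ha =>
    ⟨h ^ a, by rw [map_pow]; exact pow_ne_zero _ h3, ?_⟩⟩
  · rw [← Ideal.mem_bot, ← Ideal.iInf_pow_eq_bot_of_isDomain (RingHom.ker y) (RingHom.ker_ne_top y),
      Ideal.mem_iInf]
    exact fun a => tay_mem hζ y T h1 h2 g a (by rw [hg, MvPowerSeries.order_zero]; exact le_top)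
  · refine Ideal.pow_right_mono h4 a ?_
    rw [mul_pow, Ideal.span_singleton_pow]
    exact Ideal.mul_mem_mul (Ideal.mem_span_singleton_self _) (tay_mem hζ y T h1 h2 g a ha)

end Crest.Agent.R271
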